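import Vale.Agent.Lib.P062.Cert.N11.T4

/-! The root of the checked proof tree N11 (P062). -/

namespace Vale.Agent.Lib.P062.Cert.N11

/-- Maker, owning the cells of the first bitmask and to move, wins within the given number of
moves against the Breaker cells of the second bitmask, whatever Breaker owns outside the zone
(third bitmask). -/
theorem won : Won 37576681324381331646231689548629392438010920782533117931316655544515344401833735095419183974156299248510959616 10086913586276986678343434265636765134100413253239154346994763111486904773503285916522052161250538404046496765518544896 27459210204146383892257005154336129006869737544825928691647399984489932319938937215382727885636189153117851714719971373034748764414866348628631518822484934656 14 := c248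

end Vale.Agent.Lib.P062.Cert.N11
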