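import Vale.Agent.Lib.P062.Cert.N20.T1

/-! The root of the checked proof tree N20 (P062). -/

namespace Vale.Agent.Lib.P062.Cert.N20

/-- Maker, owning the cells of the first bitmask and to move, wins within the given number of
moves against the Breaker cells of the second bitmask, whatever Breaker owns outside the zone
(third bitmask). -/
theorem won : Won 37576681324381331646231689548629392438010920782533117931316655544515344401833735095419183974156299248510959616 150306725297525326584926758194517569752043683130132471725266622178061377607334940381676735896625196994043838464 219673531568667367348525321740543016195227018116849263180570933223751061677503888159614436096617311834297216571744158628698941920260777182071003462564055089152 15 := c97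

end Vale.Agent.Lib.P062.Cert.N20
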