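import Vale.Agent.Lib.P062.Cert.N21.T2

/-! The root of the checked proof tree N21 (P062). -/

namespace Vale.Agent.Lib.P062.Cert.N21

/-- Maker, owning the cells of the first bitmask and to move, wins within the given number of
moves against the Breaker cells of the second bitmask, whatever Breaker owns outside the zone
(third bitmask). -/
theorem won : Won 37576681324381331646231689548629392438010920782533117931316655544515344401833735095419183974156299248510959616 20173827172553973356686868531273530268200826506478308693989526222973809547006571833044104322501076808092993531037089792 18427551094663273312136894406611549747538691056519738539639287720505389301567159079661648447151253129895318642073501724030427020308293578906876116307200561498984284160 15 := c159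

end Vale.Agent.Lib.P062.Cert.N21
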