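import Vale.Agent.Lib.P062.Cert.N22.T0

/-! The root of the checked proof tree N22 (P062). -/

namespace Vale.Agent.Lib.P062.Cert.N22

/-- Maker, owning the cells of the first bitmask and to move, wins within the given number of
moves against the Breaker cells of the second bitmask, whatever Breaker owns outside the zone
(third bitmask). -/
theorem won : Won 37576681324381331646231689548629392438010920782533117931316655544515344401833735095419183974156299248510959616 2707685248164858261307045101702230179137145581421695874189921465443966120903931272499975005961073806735733604454495675614232576 1636695351201101833939670703362668317133907057387344027714799328581385490604334924376498977853481494291961064577369537279409002619553323571404792135680 15 := c39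

end Vale.Agent.Lib.P062.Cert.N22
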