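import Vale.Agent.Lib.P062.Cert.N31.T1

/-! The root of the checked proof tree N31 (P062). -/

namespace Vale.Agent.Lib.P062.Cert.N31

/-- Maker, owning the cells of the first bitmask and to move, wins within the given number of
moves against the Breaker cells of the second bitmask, whatever Breaker owns outside the zone
(third bitmask). -/
theorem won : Won 37576681324381331646231689548629392438010920782533117931316655544515344401833735095419183974156299248510959616 40347654345107946713373737062547060536401653012956617387979052445947619094013143666088208645002153616185987062074179584 29484081773428582569460203178232371410859781781882430502266143299528531017157239917841699901877712575888744076211127863155855627626027160320664696349150076250254999552 15 := c84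

end Vale.Agent.Lib.P062.Cert.N31
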