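import Vale.Agent.Lib.P062.Cert.Null.T0

/-! The root of the checked proof tree Null (P062). -/

namespace Vale.Agent.Lib.P062.Cert.Null

/-- Maker, owning the cells of the first bitmask and to move, wins within the given number of
moves against the Breaker cells of the second bitmask, whatever Breaker owns outside the zone
(third bitmask). -/
theorem won : Won 37576681324381331646231689548629392438010920782533117931316655544515344401833735095419183974156299248510959616 0 6955955136285362550483866849804048790929633811756106534134128259792343480688611023852094514831128185437589125513815908546207433737040663817597602496512 15 := c41

end Vale.Agent.Lib.P062.Cert.Null
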