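import Vale.Agent.Lib.P062.Check

/-!
# Checked proof trees: the shape of the certificate modules (P062)

A certificate module proves statements `WonE e` for positions `e` of a proof tree, each by one
run of the checker `chk` on a piece of the tree; the pieces below it enter through the table of
known wins.
-/

namespace Vale.Agent.Lib.P062

/-- The position `e` (Maker cells, Breaker cells, zone, number of moves; the first three are
bitmasks) is won by Maker in the sense of `Won`. -/
def WonE (e : ℕ × ℕ × ℕ × ℕ) : Prop := Won e.1 e.2.1 e.2.2.1 e.2.2.2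

/-- All positions of the list are won. -/
def AllWon : List (ℕ × ℕ × ℕ × ℕ) → Prop
  | [] => True
  | e :: l => WonE e ∧ AllWon l

theorem allWon_mem : ∀ {l : List (ℕ × ℕ × ℕ × ℕ)}, AllWon l →
    ∀ e ∈ l, Won e.1 e.2.1 e.2.2.1 e.2.2.2
  | [], _, e, he => absurd he List.not_mem_nil
  | a :: l, h, e, he => by
    rcases List.mem_cons.mp he with rfl | he'
    · exact h.1
    · exact allWon_mem h.2 e he'

/-- One run of the checker: the tree `toks` (packed, 256 nodes per number) proves the position
`e`, using the table `lem` of positions that are already known to be won. -/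
theorem wonE_of_chkOk {lem : List (ℕ × ℕ × ℕ × ℕ)} (hlem : AllWon lem) (fuel : ℕ)
    {e : ℕ × ℕ × ℕ × ℕ} {toks : List ℕ}
    (h : chkOk lem fuel e.1 e.2.1 (unpackAll toks) e.2.2.1 e.2.2.2 = true) : WonE e :=
  chkOk_sound (allWon_mem hlem) h

end Vale.Agent.Lib.P062
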